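import Mathlib

namespace Vale.Agent.Results.P114.CommonFixedPoint

open MeasureTheory Filter Topology
open scoped ENNReal BigOperators

variable {Λ : Type} [Fintype Λ]

/-- The composed map `φ_{i_1} ∘ ... ∘ φ_{i_n}` of a word, where `φ_i x = r i * x + t i`. -/
def compMap (r t : Λ → ℝ) : List Λ → ℝ → ℝ
  | [] => fun x => x
  | i :: w => fun x => r i * compMap r t w x + t i

/-- The map attached to a word of length `n`. -/
def wordMap (r t : Λ → ℝ) (n : ℕ) (w : Fin n → Λ) : ℝ → ℝ := compMap r t (List.ofFn w)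

open Classical in
/-- `P (G_n = g)`: the total weight of the words of length `n` whose composed map is `g`. -/
noncomputable def law (r t p : Λ → ℝ) (n : ℕ) (g : ℝ → ℝ) : ℝ :=
  ∑ w : Fin n → Λ, if wordMap r t n w = g then ∏ k, p (w k) else 0

open Classical in
/-- Shannon entropy (base 2) of the random affine map `G_n`. -/
noncomputable def entropyG (r t p : Λ → ℝ) (n : ℕ) : ℝ :=
  - ∑ g ∈ (Finset.univ.image (wordMap r t n)), law r t p n g * Real.logb 2 (law r t p n g)

/-- The random-walk entropy rate `inf_{n ≥ 1} H (G_n) / n`. -/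
noncomputable def hRW (r t p : Λ → ℝ) : ℝ :=
  ⨅ n : ℕ, entropyG r t p (n + 1) / ((n : ℝ) + 1)

/-- The Lyapunov exponent. -/
noncomputable def lyap (r p : Λ → ℝ) : ℝ := - ∑ i, p i * Real.logb 2 |r i|

/-- The lower Hausdorff dimension of a measure on the line. -/
noncomputable def lowerDim (μ : Measure ℝ) : ℝ≥0∞ :=
  ⨅ (E : Set ℝ) (_ : MeasurableSet E) (_ : 0 < μ E), dimH E

/-- The self-similarity equation `μ = ∑ p_i (φ_i)_* μ`. -/
def SelfSimilar (r t p : Λ → ℝ) (μ : Measure ℝ) : Prop :=
  μ = ∑ i, ENNReal.ofReal (p i) • μ.map (fun x => r i * x + t i)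

omit [Fintype Λ] in
lemma compMap_fix (r t : Λ → ℝ) (x0 : ℝ) (hfix : ∀ i, r i * x0 + t i = x0) (l : List Λ) (x : ℝ) :
    compMap r t l x = (l.map r).prod * (x - x0) + x0 := by
  induction l with
  | nil => simp [compMap]
  | cons i w ih =>
    simp only [compMap, List.map_cons, List.prod_cons, ih]
    have := hfix i
    linear_combination this

open Classical in
lemma wordMap_fix (r t : Λ → ℝ) (x0 : ℝ) (hfix : ∀ i, r i * x0 + t i = x0) (n : ℕ)
    (w : Fin n → Λ) :
    wordMap r t n w = fun x => (∏ i, r i ^ (Finset.univ.filter (fun k => w k = i)).card)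
      * (x - x0) + x0 := by
  funext x
  rw [wordMap, compMap_fix r t x0 hfix, List.map_ofFn, List.prod_ofFn]
  congr 2
  rw [← Finset.prod_fiberwise Finset.univ w (fun k => (r ∘ w) k)]
  refine Finset.prod_congr rfl (fun i _ => ?_)
  rw [← Finset.prod_const]
  refine Finset.prod_congr rfl (fun k hk => ?_)
  simp only [Finset.mem_filter, Finset.mem_univ, true_and] at hk
  simp [hk]

open Classical in
lemma card_image_le (r t : Λ → ℝ) (x0 : ℝ) (hfix : ∀ i, r i * x0 + t i = x0) (n : ℕ) :
    (Finset.univ.image (wordMap r t n)).card ≤ (n + 1) ^ Fintype.card Λ := by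
  let F : (Λ → Fin (n + 1)) → (ℝ → ℝ) :=
    fun c x => (∏ i, r i ^ (c i : ℕ)) * (x - x0) + x0
  have hsub : Finset.univ.image (wordMap r t n) ⊆ Finset.univ.image F := by
    intro g hg
    obtain ⟨w, -, rfl⟩ := Finset.mem_image.1 hg
    refine Finset.mem_image.2 ⟨fun i => ⟨(Finset.univ.filter (fun k => w k = i)).card, ?_⟩,
      Finset.mem_univ _, ?_⟩
    · have := Finset.card_le_univ (Finset.univ.filter (fun k => w k = i))
      simp only [Fintype.card_fin] at this
      omega
    · rw [wordMap_fix r t x0 hfix]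
  calc (Finset.univ.image (wordMap r t n)).card ≤ (Finset.univ.image F).card :=
        Finset.card_le_card hsub
    _ ≤ (Finset.univ : Finset (Λ → Fin (n + 1))).card := Finset.card_image_le
    _ = (n + 1) ^ Fintype.card Λ := by simp

lemma law_nonneg (r t p : Λ → ℝ) (hp : ∀ i, 0 < p i) (n : ℕ) (g : ℝ → ℝ) :
    0 ≤ law r t p n g := by
  unfold law
  refine Finset.sum_nonneg (fun w _ => ?_)
  split_ifs
  · exact Finset.prod_nonneg (fun k _ => (hp _).le)
  · exact le_rfl

open Classical in
lemma sum_law (r t p : Λ → ℝ) (hsum : ∑ i, p i = 1) (n : ℕ) :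
    ∑ g ∈ (Finset.univ.image (wordMap r t n)), law r t p n g = 1 := by
  unfold law
  rw [Finset.sum_comm]
  have h1 : ∀ w : Fin n → Λ, (∑ g ∈ (Finset.univ.image (wordMap r t n)),
      if wordMap r t n w = g then ∏ k, p (w k) else 0) = ∏ k, p (w k) := by
    intro w
    rw [Finset.sum_ite_eq]
    simp
  rw [Finset.sum_congr rfl (fun w _ => h1 w)]
  have h2 := Finset.prod_univ_sum (fun _ : Fin n => (Finset.univ : Finset Λ)) (fun _ j => p j)
  rw [Fintype.piFinset_univ] at h2
  rw [← h2]
  simp [hsum]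

open Classical in
lemma entropyG_eq (r t p : Λ → ℝ) (n : ℕ) :
    entropyG r t p n =
      (∑ g ∈ (Finset.univ.image (wordMap r t n)), Real.negMulLog (law r t p n g)) / Real.log 2 := by
  unfold entropyG
  rw [Finset.sum_div, ← Finset.sum_neg_distrib]
  refine Finset.sum_congr rfl (fun g _ => ?_)
  simp only [Real.negMulLog, Real.logb]
  ring

open Classical in
lemma entropyG_nonneg (r t p : Λ → ℝ) (hp : ∀ i, 0 < p i) (hsum : ∑ i, p i = 1) (n : ℕ) :
    0 ≤ entropyG r t p n := by
  rw [entropyG_eq]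
  refine div_nonneg (Finset.sum_nonneg (fun g hg => ?_)) (Real.log_nonneg (by norm_num))
  refine Real.negMulLog_nonneg (law_nonneg r t p hp n g) ?_
  rw [← sum_law r t p hsum n]
  exact Finset.single_le_sum (f := fun g => law r t p n g)
    (fun g _ => law_nonneg r t p hp n g) hg

open Classical in
lemma entropyG_le [Nonempty Λ] (r t p : Λ → ℝ) (hp : ∀ i, 0 < p i) (hsum : ∑ i, p i = 1) (n : ℕ) :
    entropyG r t p n ≤ Real.log ((Finset.univ.image (wordMap r t n)).card) / Real.log 2 := by
  rw [entropyG_eq]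
  refine div_le_div_of_nonneg_right ?_ (Real.log_nonneg (by norm_num))
  set S := Finset.univ.image (wordMap r t n) with hS
  have hSne : S.Nonempty := Finset.univ_nonempty.image _
  have hM : (0 : ℝ) < S.card := by exact_mod_cast hSne.card_pos
  have hJ := Real.concaveOn_negMulLog.le_map_sum (t := S) (w := fun _ => (1 : ℝ) / S.card)
    (p := fun g => law r t p n g) (fun _ _ => by positivity)
    (by rw [Finset.sum_const, nsmul_eq_mul]; field_simp)
    (fun g _ => law_nonneg r t p hp n g)
  simp only [smul_eq_mul, ← Finset.mul_sum] at hJ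
  rw [sum_law r t p hsum n] at hJ
  have h3 : Real.negMulLog (1 / (S.card : ℝ) * 1) = 1 / (S.card : ℝ) * Real.log S.card := by
    simp [Real.negMulLog]
  rw [h3] at hJ
  exact le_of_mul_le_mul_left hJ (by positivity)

lemma hRW_eq_zero [Nonempty Λ] (r t p : Λ → ℝ) (hp : ∀ i, 0 < p i) (hsum : ∑ i, p i = 1)
    (x0 : ℝ) (hfix : ∀ i, r i * x0 + t i = x0) : hRW r t p = 0 := by
  classical
  have hnn : ∀ n : ℕ, 0 ≤ entropyG r t p (n + 1) / ((n : ℝ) + 1) := fun n =>
    div_nonneg (entropyG_nonneg r t p hp hsum _) (by positivity)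
  have hbdd : BddBelow (Set.range fun n : ℕ => entropyG r t p (n + 1) / ((n : ℝ) + 1)) :=
    ⟨0, by rintro _ ⟨n, rfl⟩; exact hnn n⟩
  have hub : ∀ n : ℕ, entropyG r t p (n + 1) / ((n : ℝ) + 1) ≤
      (Fintype.card Λ / Real.log 2) * (Real.log ((n : ℝ) + 2) ^ 1 / (1 * ((n : ℝ) + 2) + (-1))) := by
    intro n
    have h1 := entropyG_le r t p hp hsum (n + 1)
    have h2 := card_image_le r t x0 hfix (n + 1)
    have hpos : 0 < (Finset.univ.image (wordMap r t (n + 1))).card :=
      (Finset.univ_nonempty.image _).card_pos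
    have h3 : Real.log ((Finset.univ.image (wordMap r t (n + 1))).card) ≤
        Fintype.card Λ * Real.log ((n : ℝ) + 2) := by
      rw [← Real.log_pow]
      refine Real.log_le_log (by exact_mod_cast hpos) ?_
      have : ((Finset.univ.image (wordMap r t (n + 1))).card : ℝ) ≤
          (((n + 1 + 1) ^ Fintype.card Λ : ℕ) : ℝ) := by exact_mod_cast h2
      refine this.trans (le_of_eq ?_)
      push_cast
      ring
    have hl2 : 0 < Real.log 2 := Real.log_pos (by norm_num)
    have hn1 : (0 : ℝ) < (n : ℝ) + 1 := by positivity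
    have h4 : (1 * ((n : ℝ) + 2) + (-1)) = (n : ℝ) + 1 := by ring
    rw [h4, pow_one]
    calc entropyG r t p (n + 1) / ((n : ℝ) + 1)
        ≤ (Fintype.card Λ * Real.log ((n : ℝ) + 2) / Real.log 2) / ((n : ℝ) + 1) := by
          refine div_le_div_of_nonneg_right (h1.trans ?_) hn1.le
          exact div_le_div_of_nonneg_right h3 hl2.le
      _ = _ := by field_simp
  have hlim : Tendsto (fun n : ℕ => (Fintype.card Λ / Real.log 2) *
      (Real.log ((n : ℝ) + 2) ^ 1 / (1 * ((n : ℝ) + 2) + (-1)))) atTop (𝓝 0) := by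
    have h1 := Real.tendsto_pow_log_div_mul_add_atTop 1 (-1) 1 one_ne_zero
    have h2 : Tendsto (fun n : ℕ => (n : ℝ) + 2) atTop atTop :=
      tendsto_atTop_add_const_right _ _ tendsto_natCast_atTop_atTop
    have h3 := (h1.comp h2).const_mul ((Fintype.card Λ : ℝ) / Real.log 2)
    simpa using h3
  refine le_antisymm ?_ (le_ciInf hnn)
  exact ge_of_tendsto' hlim (fun n => (ciInf_le hbdd n).trans (hub n))

lemma ball_le (r t p : Λ → ℝ) (hp : ∀ i, 0 < p i) (hsum : ∑ i, p i = 1)
    (x0 : ℝ) (hfix : ∀ i, r i * x0 + t i = x0) (ρ : ℝ) (hρ : ∀ i, |r i| ≤ ρ)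
    (μ : Measure ℝ) (hμ : SelfSimilar r t p μ) (R : ℝ) :
    μ (Metric.closedBall x0 R) ≤ μ (Metric.closedBall x0 (ρ * R)) := by
  have hmeas : ∀ i, Measurable (fun x : ℝ => r i * x + t i) := fun i => by fun_prop
  have h1 : μ (Metric.closedBall x0 (ρ * R)) =
      ∑ i, ENNReal.ofReal (p i) * μ ((fun x : ℝ => r i * x + t i) ⁻¹' Metric.closedBall x0 (ρ * R)) := by
    conv_lhs => rw [hμ]
    rw [Measure.finsetSum_apply]
    refine Finset.sum_congr rfl (fun i _ => ?_)
    rw [Measure.smul_apply, Measure.map_apply (hmeas i) Metric.isClosed_closedBall.measurableSet,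
      smul_eq_mul]
  have h2 : μ (Metric.closedBall x0 R) = ∑ i, ENNReal.ofReal (p i) * μ (Metric.closedBall x0 R) := by
    rw [← Finset.sum_mul, ← ENNReal.ofReal_sum_of_nonneg (fun i _ => (hp i).le), hsum]
    simp
  rw [h1, h2]
  refine Finset.sum_le_sum (fun i _ => ?_)
  gcongr
  intro x hx
  simp only [Metric.mem_closedBall, Set.mem_preimage, Real.dist_eq] at hx ⊢
  have h3 : r i * x + t i - x0 = r i * (x - x0) := by
    have := hfix i
    linear_combination this
  rw [h3, abs_mul]
  exact mul_le_mul (hρ i) hx (abs_nonneg _) ((abs_nonneg _).trans (hρ i))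

lemma ball_le_singleton [Nonempty Λ] (r t p : Λ → ℝ) (hr1 : ∀ i, |r i| < 1) (hp : ∀ i, 0 < p i)
    (hsum : ∑ i, p i = 1) (x0 : ℝ) (hfix : ∀ i, r i * x0 + t i = x0)
    (μ : Measure ℝ) [IsFiniteMeasure μ] (hμ : SelfSimilar r t p μ) (R : ℝ) (hR : 0 ≤ R) :
    μ (Metric.closedBall x0 R) ≤ μ {x0} := by
  obtain ⟨i0, hi0⟩ := Finite.exists_max (fun i => |r i|)
  set ρ := |r i0| with hρdef
  have hρ0 : 0 ≤ ρ := abs_nonneg _
  have hρ1 : ρ < 1 := hr1 i0
  have iter : ∀ n : ℕ, μ (Metric.closedBall x0 R) ≤ μ (Metric.closedBall x0 (ρ ^ n * R)) := by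
    intro n
    induction n with
    | zero => simp
    | succ n ih =>
      refine ih.trans ?_
      have := ball_le r t p hp hsum x0 hfix ρ hi0 μ hμ (ρ ^ n * R)
      rwa [← mul_assoc, ← pow_succ'] at this
  have hanti : Antitone (fun n : ℕ => Metric.closedBall x0 (ρ ^ n * R)) := by
    intro m n hmn
    refine Metric.closedBall_subset_closedBall ?_
    exact mul_le_mul_of_nonneg_right (pow_le_pow_of_le_one hρ0 hρ1.le hmn) hR
  have hinter : (⋂ n : ℕ, Metric.closedBall x0 (ρ ^ n * R)) = {x0} := by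
    ext x
    simp only [Set.mem_iInter, Metric.mem_closedBall, Set.mem_singleton_iff]
    constructor
    · intro h
      have hl : Tendsto (fun n : ℕ => ρ ^ n * R) atTop (𝓝 (0 * R)) :=
        (tendsto_pow_atTop_nhds_zero_of_lt_one hρ0 hρ1).mul_const R
      rw [zero_mul] at hl
      have : dist x x0 ≤ 0 := ge_of_tendsto' hl h
      exact dist_le_zero.1 this
    · rintro rfl n
      simp only [dist_self]
      positivity
  have hl := tendsto_measure_iInter_atTop (μ := μ)
    (fun n => (Metric.isClosed_closedBall (x := x0) (ε := ρ ^ n * R)).measurableSet.nullMeasurableSet)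
    hanti ⟨0, measure_ne_top μ _⟩
  rw [hinter] at hl
  exact ge_of_tendsto' hl iter

lemma singleton_pos [Nonempty Λ] (r t p : Λ → ℝ) (hr1 : ∀ i, |r i| < 1) (hp : ∀ i, 0 < p i)
    (hsum : ∑ i, p i = 1) (x0 : ℝ) (hfix : ∀ i, r i * x0 + t i = x0)
    (μ : Measure ℝ) [IsProbabilityMeasure μ] (hμ : SelfSimilar r t p μ) : 0 < μ {x0} := by
  by_contra hcon
  have h0 : μ {x0} = 0 := by simpa using hcon
  have h1 : ∀ n : ℕ, μ (Metric.closedBall x0 n) = 0 := fun n =>
    le_antisymm ((ball_le_singleton r t p hr1 hp hsum x0 hfix μ hμ n (Nat.cast_nonneg n)).trans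
      h0.le) zero_le
  have h2 : μ (⋃ n : ℕ, Metric.closedBall x0 n) = 0 := measure_iUnion_null h1
  rw [Metric.iUnion_closedBall_nat, measure_univ] at h2
  exact one_ne_zero h2

/-- **Q1 for systems with a common fixed point.**  For every finite family of contracting
similarities `φ_i x = r i * x + t i` of the line (ratios of either sign, arbitrary reals) that
fix a common point, and every positive probability vector `p`: a self-similar probability
measure exists, `h_RW = 0`, and every probability measure solving the self-similarity equation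
has lower Hausdorff dimension `min {1, h_RW / χ}`, which is `0`. -/
theorem result [Nonempty Λ] (r t p : Λ → ℝ)
    (hr0 : ∀ i, 0 < |r i|) (hr1 : ∀ i, |r i| < 1) (hp : ∀ i, 0 < p i) (hsum : ∑ i, p i = 1)
    (x0 : ℝ) (hfix : ∀ i, r i * x0 + t i = x0) :
    (∃ μ : Measure ℝ, IsProbabilityMeasure μ ∧ SelfSimilar r t p μ) ∧
    hRW r t p = 0 ∧
    ∀ μ : Measure ℝ, IsProbabilityMeasure μ → SelfSimilar r t p μ →
      lowerDim μ = ENNReal.ofReal (min 1 (hRW r t p / lyap r p)) ∧ lowerDim μ = 0 := by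
  refine ⟨⟨Measure.dirac x0, inferInstance, ?_⟩, hRW_eq_zero r t p hp hsum x0 hfix, ?_⟩
  · unfold SelfSimilar
    have h1 : ∀ i, (Measure.dirac x0).map (fun x : ℝ => r i * x + t i) = Measure.dirac x0 := by
      intro i
      have hm : Measurable (fun x : ℝ => r i * x + t i) := by fun_prop
      rw [Measure.map_dirac' hm, hfix i]
    simp only [h1]
    rw [← Finset.sum_smul, ← ENNReal.ofReal_sum_of_nonneg (fun i _ => (hp i).le), hsum]
    simp
  · intro μ hprob hμ
    rw [hRW_eq_zero r t p hp hsum x0 hfix]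
    have hpos := singleton_pos r t p hr1 hp hsum x0 hfix μ hμ
    have h1 : lowerDim μ ≤ 0 := by
      unfold lowerDim
      refine (iInf_le _ {x0}).trans ?_
      refine (iInf_le _ (measurableSet_singleton x0)).trans ?_
      refine (iInf_le _ hpos).trans ?_
      simp
    simp only [zero_div]
    rw [min_eq_right zero_le_one, ENNReal.ofReal_zero]
    exact ⟨le_antisymm h1 zero_le, le_antisymm h1 zero_le⟩

end Vale.Agent.Results.P114.CommonFixedPoint
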